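import Vale.Agent.P358.Main

namespace Vale.Agent.Results.P358.Additivity

open Vale.Agent.P358

theorem result (γ ν : ℝ) (hγ : γ ∈ Set.Icc (0 : ℝ) 1) (hν : ν ∈ Set.Icc (0 : ℝ) 1) :
    (∀ n : ℕ, 1 ≤ n → holevo (tensorPow (gadc γ ν) n) = n * holevo (gadc γ ν)) ∧
    capacity (gadc γ ν) = holevo (gadc γ ν) ∧
    IsGreatest (capFun γ ν '' Set.Icc 0 1) (capacity (gadc γ ν)) ∧
    (∀ n : ℕ, 1 ≤ n →
      IsGreatest (holevoValues (tensorPow (gadc γ ν) n)) (n * capacity (gadc γ ν))) ∧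
    (∀ (c d : ℕ) (M : Matrix (Fin (c + 1)) (Fin (c + 1)) ℂ → Matrix (Fin d) (Fin d) ℂ),
      IsChannel M → holevo (tensorMap (gadc γ ν) M) = holevo (gadc γ ν) + holevo M) := by
  obtain ⟨q₀, hq, hmax⟩ := exists_max γ ν
  have hp := pow_greatest hγ hν hq hmax
  have hpow : ∀ n : ℕ, holevo (tensorPow (gadc γ ν) n) = n * capFun γ ν q₀ :=
    fun n => (hp n).csSup_eq
  have h1 : holevo (gadc γ ν) = capFun γ ν q₀ := by
    have := hpow 1
    unfold holevo at this ⊢
    rw [pow_one_reindex (gadc_kraus hγ hν).lin, this]; simp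
  have hC : capacity (gadc γ ν) = capFun γ ν q₀ := by
    unfold capacity
    have : {x | ∃ n : ℕ, 1 ≤ n ∧ x = holevo (tensorPow (gadc γ ν) n) / n} = {capFun γ ν q₀} := by
      ext x
      constructor
      · rintro ⟨n, hn, rfl⟩
        have : (n : ℝ) ≠ 0 := by positivity
        rw [hpow, Set.mem_singleton_iff]; field_simp
      · rintro rfl
        exact ⟨1, le_rfl, by rw [hpow]; simp⟩
    rw [this, csSup_singleton]
  refine ⟨fun n _ => by rw [hpow, h1], by rw [hC, h1], ?_, fun n _ => by rw [hC]; exact hp n, ?_⟩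
  · rw [hC]
    exact ⟨⟨q₀, hq, rfl⟩, by rintro _ ⟨q, hq', rfl⟩; exact hmax q hq'⟩
  · intro c d M hM
    rw [h1]
    exact (additivity hγ hν hq hmax hM.kraus).csSup_eq (holevoValues_nonempty _)

end Vale.Agent.Results.P358.Additivity
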